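import Mathlib
import Vale.Agent.Lib.P100.Barriers
open Filter Topology Set InnerProductSpace Laplacian

namespace Vale.Agent.P100.Sup

variable {E : Type*} [NormedAddCommGroup E] [InnerProductSpace ℝ E] [FiniteDimensional ℝ E]

/-- Laplacian of the squared distance to a point -/
lemma laplacian_norm_sub_sq (x₀ x : E) :
    Δ (fun y : E => ‖y - x₀‖ ^ 2) x = 2 * (Module.finrank ℝ E : ℝ) := by
  have hcd : ContDiffAt ℝ 2 (fun y : E => ‖y - x₀‖ ^ 2) x :=
    ((contDiff_norm_sq ℝ).comp (contDiff_id.sub contDiff_const)).contDiffAt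
  rw [laplacian_eq_iteratedFDeriv_stdOrthonormalBasis]
  have key : ∀ i, iteratedFDeriv ℝ 2 (fun y : E => ‖y - x₀‖ ^ 2) x
      ![(stdOrthonormalBasis ℝ E) i, (stdOrthonormalBasis ℝ E) i] = 2 := by
    intro i
    rw [iteratedFDeriv_two_eq_deriv_deriv hcd]
    have h := deriv_deriv_comp_quadratic (g := fun s : ℝ => s) (N := ‖x - x₀‖ ^ 2)
      (c := inner ℝ (x - x₀) ((stdOrthonormalBasis ℝ E) i)) contDiffAt_id
    have e1 : (fun t : ℝ => ‖x + t • (stdOrthonormalBasis ℝ E) i - x₀‖ ^ 2)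
        = fun t : ℝ => ‖x - x₀‖ ^ 2 + 2 * inner ℝ (x - x₀) ((stdOrthonormalBasis ℝ E) i) * t
          + t ^ 2 := by
      ext t
      rw [show x + t • (stdOrthonormalBasis ℝ E) i - x₀
        = (x - x₀) + t • (stdOrthonormalBasis ℝ E) i by abel]
      rw [norm_add_sq_real, norm_smul, inner_smul_right,
        (stdOrthonormalBasis ℝ E).orthonormal.1 i]
      simp
      ring
    rw [e1, h]
    have e2 : deriv (fun s : ℝ => s) = fun _ => 1 := by
      ext s; simp
    rw [e2]
    simp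
  simp only [key]
  simp
  ring

/-- quantitative lower bound from a source term on a ball -/
lemma ball_barrier [Nontrivial E] {u : E → ℝ} {x₀ : E} {ρ lam : ℝ} (hρ : 0 < ρ) (hlam : 0 < lam)
    (hu : ∀ x ∈ Metric.closedBall x₀ ρ, ContDiffAt ℝ 2 u x)
    (pos : ∀ x ∈ Metric.closedBall x₀ ρ, 0 ≤ u x)
    (hlap : ∀ x ∈ Metric.ball x₀ ρ, Δ u x ≤ -lam) :
    lam * ρ ^ 2 / (4 * (Module.finrank ℝ E : ℝ)) ≤ u x₀ := by
  have hN : 0 < (Module.finrank ℝ E : ℝ) := by
    exact_mod_cast Module.finrank_pos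
  set c : ℝ := lam / (4 * (Module.finrank ℝ E : ℝ)) with hc
  have hc0 : 0 < c := by positivity
  have hcd : ∀ x, ContDiffAt ℝ 2 (fun y : E => ‖y - x₀‖ ^ 2) x := fun x =>
    ((contDiff_norm_sq ℝ).comp (contDiff_id.sub contDiff_const)).contDiffAt
  have hmp := min_principle (Ω := Metric.ball x₀ ρ) Metric.isOpen_ball Metric.isBounded_ball
    (h := fun y => u y + c * ‖y - x₀‖ ^ 2) (m := c * ρ ^ 2) ?_ ?_ ?_ x₀
    (subset_closure (Metric.mem_ball_self hρ))
  · have e : c * ρ ^ 2 = lam * ρ ^ 2 / (4 * (Module.finrank ℝ E : ℝ)) := by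
      rw [hc]; ring
    rw [← e]
    simpa using hmp
  · rw [closure_ball x₀ hρ.ne']
    intro x hx
    exact ((hu x hx).continuousAt.add
      (continuousAt_const.mul (hcd x).continuousAt)).continuousWithinAt
  · intro x hx
    have hx' : x ∈ Metric.closedBall x₀ ρ := Metric.ball_subset_closedBall hx
    refine ⟨(hu x hx').add (contDiffAt_const.mul (hcd x)), ?_⟩
    rw [laplacian_add_mul (hu x hx') (hcd x) c, laplacian_norm_sub_sq]
    have e : c * (2 * (Module.finrank ℝ E : ℝ)) = lam / 2 := by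
      rw [hc]; field_simp; ring
    rw [e]
    have := hlap x hx
    linarith
  · rw [frontier_ball x₀ hρ.ne']
    intro x hx
    have hx' : x ∈ Metric.closedBall x₀ ρ := Metric.sphere_subset_closedBall hx
    have hn : ‖x - x₀‖ = ρ := by
      rw [← dist_eq_norm]; exact hx
    have := pos x hx'
    simp only [hn]
    linarith

end Vale.Agent.P100.Sup
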