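import Mathlib
import Vale.Agent.Lib.P100.Barriers
open Filter Topology Set InnerProductSpace Laplacian

namespace Vale.Agent.P100.Sup

variable {E : Type*} [NormedAddCommGroup E] [InnerProductSpace ℝ E] [FiniteDimensional ℝ E]

omit [FiniteDimensional ℝ E] in
lemma contDiffAt_norm_rpow_log {x : E} (hx : x ≠ 0) (s : ℝ) :
    ContDiffAt ℝ 2 (fun y : E => ‖y‖ ^ s * Real.log ‖y‖) x :=
  (contDiffAt_norm_rpow hx s).mul (contDiffAt_log_norm hx)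

/-- `-Δ (|x|^(2-N) log |x|) = (N-2) |x|^(-N)` -/
lemma laplacian_norm_rpow_log {x : E} (hx : x ≠ 0) :
    Δ (fun y : E => ‖y‖ ^ (2 - (Module.finrank ℝ E : ℝ)) * Real.log ‖y‖) x
      = -(((Module.finrank ℝ E : ℝ) - 2) * ‖x‖ ^ (-(Module.finrank ℝ E : ℝ))) := by
  have hn : 0 < ‖x‖ := norm_pos_iff.mpr hx
  have hN : 0 < ‖x‖ ^ 2 := by positivity
  set n : ℝ := (Module.finrank ℝ E : ℝ) with hndef
  set a : ℝ := (2 - n) / 2 with ha
  set g : ℝ → ℝ := fun σ => σ ^ a * ((1 / 2) * Real.log σ) with hg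
  have hfun : (fun y : E => ‖y‖ ^ (2 - n) * Real.log ‖y‖) = fun y : E => g (‖y‖ ^ 2) := by
    ext y
    simp only [hg]
    rw [← Real.rpow_natCast ‖y‖ 2, ← Real.rpow_mul (norm_nonneg y), Real.rpow_natCast,
      Real.log_pow]
    have : ((2 : ℕ) : ℝ) * a = 2 - n := by
      rw [ha]; push_cast; ring
    rw [this]
    push_cast
    ring
  have hgc : ContDiffAt ℝ 2 g (‖x‖ ^ 2) :=
    (Real.contDiffAt_rpow_const_of_ne hN.ne').mul
      (contDiffAt_const.mul (Real.contDiffAt_log.mpr hN.ne'))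
  have hd1' : ∀ σ : ℝ, 0 < σ →
      HasDerivAt g ((1 / 2) * (σ ^ (a - 1) * (a * Real.log σ + 1))) σ := by
    intro σ hσ
    have h1 : HasDerivAt (fun σ : ℝ => σ ^ a) (a * σ ^ (a - 1)) σ :=
      Real.hasDerivAt_rpow_const (Or.inl hσ.ne')
    have h2 : HasDerivAt (fun σ : ℝ => (1 / 2) * Real.log σ) ((1 / 2) * σ⁻¹) σ :=
      (Real.hasDerivAt_log hσ.ne').const_mul _
    have h3 := h1.mul h2
    have e : σ ^ a = σ ^ (a - 1) * σ := by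
      rw [← Real.rpow_add_one hσ.ne']; simp
    have e2 : a * σ ^ (a - 1) * ((1 / 2) * Real.log σ) + σ ^ a * ((1 / 2) * σ⁻¹)
        = (1 / 2) * (σ ^ (a - 1) * (a * Real.log σ + 1)) := by
      rw [e]; field_simp
    rw [← e2]
    exact h3
  have hd1 : deriv g =ᶠ[𝓝 (‖x‖ ^ 2)]
      fun σ => (1 / 2) * (σ ^ (a - 1) * (a * Real.log σ + 1)) := by
    filter_upwards [lt_mem_nhds hN] with σ hσ
    exact (hd1' σ hσ).deriv
  have hd2 : deriv (deriv g) (‖x‖ ^ 2)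
      = (1 / 2) * ((a - 1) * (‖x‖ ^ 2) ^ (a - 1 - 1) * (a * Real.log (‖x‖ ^ 2) + 1)
        + (‖x‖ ^ 2) ^ (a - 1) * (a * (‖x‖ ^ 2)⁻¹)) := by
    rw [hd1.deriv_eq]
    have h1 : HasDerivAt (fun σ : ℝ => σ ^ (a - 1)) ((a - 1) * (‖x‖ ^ 2) ^ (a - 1 - 1))
        (‖x‖ ^ 2) := Real.hasDerivAt_rpow_const (Or.inl hN.ne')
    have h2 : HasDerivAt (fun σ : ℝ => a * Real.log σ + 1) (a * (‖x‖ ^ 2)⁻¹) (‖x‖ ^ 2) :=
      ((Real.hasDerivAt_log hN.ne').const_mul _).add_const _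
    exact ((h1.mul h2).const_mul (1 / 2)).deriv
  rw [hfun, laplacian_radial hgc, hd2, hd1.eq_of_nhds]
  have e1 : (‖x‖ ^ 2) ^ (a - 1 - 1) = (‖x‖ ^ 2) ^ (a - 1) * (‖x‖ ^ 2)⁻¹ := by
    rw [Real.rpow_sub_one hN.ne' (a - 1)]; rfl
  have e2 : (‖x‖ ^ 2) ^ (a - 1) = ‖x‖ ^ (-n) := by
    rw [← Real.rpow_natCast ‖x‖ 2, ← Real.rpow_mul hn.le]
    congr 1
    rw [ha]
    push_cast
    ring
  rw [e1, e2]
  have hna : n = 2 - 2 * a := by rw [ha]; ring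
  rw [← hndef]
  generalize ‖x‖ ^ (-n) = X
  generalize Real.log (‖x‖ ^ 2) = L
  rw [hna]
  field_simp
  ring

end Vale.Agent.P100.Sup
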