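import Mathlib
import Vale.Agent.Lib.P100.Barriers
import Vale.Agent.Lib.P100.Sup.LogBarrier
open Filter Topology Set InnerProductSpace Laplacian

namespace Vale.Agent.P100.Sup

variable {E : Type*} [NormedAddCommGroup E] [InnerProductSpace ℝ E] [FiniteDimensional ℝ E]

/-- a source term `≥ c |x|^(-N)` outside the unit ball forces a logarithmic gain over the
fundamental solution -/
lemma log_barrier (hE : 3 ≤ Module.finrank ℝ E) {u : E → ℝ} {c : ℝ} (hc : 0 < c)
    (hu : ∀ x, x ≠ 0 → ContDiffAt ℝ 2 u x) (pos : ∀ x, x ≠ 0 → 0 < u x)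
    (hlap : ∀ x : E, 1 < ‖x‖ → Δ u x ≤ -(c * ‖x‖ ^ (-(Module.finrank ℝ E : ℝ)))) :
    ∀ x : E, 1 ≤ ‖x‖ →
      c / (2 * ((Module.finrank ℝ E : ℝ) - 2))
        * (‖x‖ ^ (2 - (Module.finrank ℝ E : ℝ)) * Real.log ‖x‖) ≤ u x := by
  intro x hx
  have hn3 : (3 : ℝ) ≤ (Module.finrank ℝ E : ℝ) := by exact_mod_cast hE
  set n : ℝ := (Module.finrank ℝ E : ℝ) with hndef
  set ε₀ : ℝ := c / (2 * (n - 2)) with hε₀
  have hn2 : 0 < n - 2 := by linarith
  have hε₀pos : 0 < ε₀ := by positivity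
  have hne : ∀ y : E, 1 ≤ ‖y‖ → y ≠ 0 := by
    intro y hy h0
    rw [h0, norm_zero] at hy
    linarith
  rcases hx.eq_or_lt with hx1 | hx1
  · rw [← hx1]
    simp only [Real.log_one, mul_zero]
    exact (pos x (hne x hx)).le
  apply le_of_forall_pos_le_add
  intro ε hε
  have ht : Tendsto (fun R : ℝ => Real.log R / R ^ (n - 2)) atTop (𝓝 0) :=
    (isLittleO_log_rpow_atTop hn2).tendsto_div_nhds_zero
  have hev1 : ∀ᶠ R : ℝ in atTop, Real.log R / R ^ (n - 2) < ε / ε₀ :=
    ht.eventually (gt_mem_nhds (by positivity))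
  obtain ⟨R, hR1, hR2⟩ := (hev1.and (eventually_gt_atTop ‖x‖)).exists
  have hRpos : 0 < R := by linarith
  have hRb : ε₀ * (R ^ (2 - n) * Real.log R) ≤ ε := by
    have e : R ^ (2 - n) * Real.log R = Real.log R / R ^ (n - 2) := by
      rw [show 2 - n = -(n - 2) by ring, Real.rpow_neg hRpos.le]
      ring
    rw [e]
    have := (lt_div_iff₀ hε₀pos).1 hR1
    linarith
  have hmp := min_principle_annulus (r₁ := 1) (r₂ := R) (m := -ε)
    (h := fun y : E => u y + (-ε₀) * (‖y‖ ^ (2 - n) * Real.log ‖y‖)) ?_ ?_ ?_ ?_ x hx1 hR2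
  · linarith
  · intro y hy
    have hy0 := hne y hy.1
    exact ((hu y hy0).continuousAt.add
      (continuousAt_const.mul (contDiffAt_norm_rpow_log hy0 (2 - n)).continuousAt)).continuousWithinAt
  · intro y hy1 _
    have hy0 := hne y hy1.le
    refine ⟨(hu y hy0).add (contDiffAt_const.mul (contDiffAt_norm_rpow_log hy0 (2 - n))), ?_⟩
    rw [laplacian_add_mul (hu y hy0) (contDiffAt_norm_rpow_log hy0 (2 - n)) (-ε₀),
      laplacian_norm_rpow_log hy0, ← hndef]
    have h1 := hlap y hy1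
    have hX : 0 < ‖y‖ ^ (-n) := Real.rpow_pos_of_pos (by linarith) _
    have e : -ε₀ * -((n - 2) * ‖y‖ ^ (-n)) = c / 2 * ‖y‖ ^ (-n) := by
      rw [hε₀]; field_simp
    rw [e]
    nlinarith [mul_pos hc hX]
  · intro y hy
    have hy0 := hne y hy.ge
    simp only [hy, Real.log_one, mul_zero, add_zero]
    linarith [pos y hy0]
  · intro y hy
    have hy0 := hne y (by rw [hy]; linarith)
    simp only [hy]
    linarith [pos y hy0]

/-- a logarithmic gain is incompatible with the critical upper bound -/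
lemma false_of_log {e k c C : ℝ} (he : 0 < e) (hc : 0 < c) {U : ℝ → ℝ}
    (hlow : ∀ r, 1 ≤ r → c * (r ^ (-k) * Real.log r) ≤ U r)
    (h : ∀ r, 0 < r → U r ^ e ≤ C * r ^ (-(k * e))) : False := by
  set t : ℝ := (|C| + 1) ^ (1 / e) / c with ht
  have hC1 : 0 < |C| + 1 := by positivity
  have ht0 : 0 < t := div_pos (Real.rpow_pos_of_pos hC1 _) hc
  set r : ℝ := Real.exp t with hr
  have hr0 : 0 < r := Real.exp_pos t
  have hr1 : 1 ≤ r := Real.one_le_exp ht0.le
  have hlog : Real.log r = t := Real.log_exp t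
  have h1 := hlow r hr1
  rw [hlog] at h1
  have hX : 0 < r ^ (-k) := Real.rpow_pos_of_pos hr0 _
  have h2 : (c * (r ^ (-k) * t)) ^ e ≤ U r ^ e :=
    Real.rpow_le_rpow (by positivity) h1 he.le
  have h3 := h2.trans (h r hr0)
  have e1 : (c * (r ^ (-k) * t)) ^ e = (|C| + 1) * r ^ (-(k * e)) := by
    have : c * (r ^ (-k) * t) = (|C| + 1) ^ (1 / e) * r ^ (-k) := by
      rw [ht]; field_simp
    rw [this, Real.mul_rpow (Real.rpow_pos_of_pos hC1 _).le hX.le, ← Real.rpow_mul hC1.le,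
      ← Real.rpow_mul hr0.le]
    have e2 : 1 / e * e = 1 := by field_simp
    rw [e2, Real.rpow_one]
    congr 2
    ring
  rw [e1] at h3
  have hY : 0 < r ^ (-(k * e)) := Real.rpow_pos_of_pos hr0 _
  have h4 : |C| + 1 ≤ C := le_of_mul_le_mul_right h3 hY
  linarith [le_abs_self C]

end Vale.Agent.P100.Sup
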