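import Mathlib
open Filter Topology Set

namespace Vale.Agent.P100.Sup

variable {E : Type*} [NormedAddCommGroup E] [InnerProductSpace ℝ E] [FiniteDimensional ℝ E]

/-- the minimum of `u` over the sphere of radius `r` centred at the origin -/
noncomputable def mn (u : E → ℝ) (r : ℝ) : ℝ := sInf (u '' Metric.sphere (0 : E) r)

lemma mn_le {u : E → ℝ} {r : ℝ} (hc : ContinuousOn u (Metric.sphere (0 : E) r)) {x : E}
    (hx : ‖x‖ = r) : mn u r ≤ u x := by
  have hK : IsCompact (u '' Metric.sphere (0 : E) r) :=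
    (isCompact_sphere (0 : E) r).image_of_continuousOn hc
  exact csInf_le hK.bddBelow (mem_image_of_mem u (by simpa using hx))

lemma exists_eq_mn [Nontrivial E] {u : E → ℝ} {r : ℝ} (hr : 0 ≤ r)
    (hc : ContinuousOn u (Metric.sphere (0 : E) r)) : ∃ x : E, ‖x‖ = r ∧ u x = mn u r := by
  obtain ⟨x, hx, hmin⟩ := (isCompact_sphere (0 : E) r).exists_isMinOn
    (NormedSpace.sphere_nonempty.2 hr) hc
  have hxr : ‖x‖ = r := by simpa using hx
  refine ⟨x, hxr, le_antisymm ?_ (mn_le hc hxr)⟩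
  apply le_csInf ⟨u x, mem_image_of_mem u hx⟩
  rintro b ⟨y, hy, rfl⟩
  exact hmin hy

end Vale.Agent.P100.Sup
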