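import Mathlib
import Vale.Agent.Lib.P100.Barriers
import Vale.Agent.Lib.P100.Sup.Mn
open Filter Topology Set InnerProductSpace Laplacian

namespace Vale.Agent.P100.Sup

variable {E : Type*} [NormedAddCommGroup E] [InnerProductSpace ℝ E] [FiniteDimensional ℝ E]

/-- the fundamental solution is harmonic off the origin -/
lemma laplacian_fundamental {x : E} (hx : x ≠ 0) :
    Δ (fun y : E => ‖y‖ ^ (2 - (Module.finrank ℝ E : ℝ))) x = 0 := by
  rw [laplacian_norm_rpow hx]
  ring_nf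

/-- a positive strictly superharmonic function on the punctured space is, inside the ball of
radius `R`, at least its minimum over the sphere of radius `R` -/
lemma inner_bound (hE : 3 ≤ Module.finrank ℝ E) {u : E → ℝ}
    (hu : ∀ x, x ≠ 0 → ContDiffAt ℝ 2 u x) (pos : ∀ x, x ≠ 0 → 0 < u x)
    (hlap : ∀ x, x ≠ 0 → Δ u x < 0) {m R : ℝ} (hm : ∀ x : E, ‖x‖ = R → m ≤ u x)
    {x : E} (hx : x ≠ 0) (hxR : ‖x‖ ≤ R) : m ≤ u x := by
  rcases hxR.eq_or_lt with hxR | hxR
  · exact hm x hxR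
  by_cases hm0 : m ≤ 0
  · exact hm0.trans (pos x hx).le
  push Not at hm0
  set s : ℝ := 2 - (Module.finrank ℝ E : ℝ) with hs
  have hN : (3 : ℝ) ≤ (Module.finrank ℝ E : ℝ) := by exact_mod_cast hE
  have hs0 : s < 0 := by rw [hs]; linarith
  have hxn : 0 < ‖x‖ := norm_pos_iff.mpr hx
  have hne_of_norm_pos : ∀ y : E, 0 < ‖y‖ → y ≠ 0 := fun y hy => norm_pos_iff.mp hy
  have key : ∀ ε : ℝ, 0 < ε → m ≤ u x + ε * ‖x‖ ^ s := by
    intro ε hε
    set δ := min (‖x‖ / 2) ((m / ε) ^ (1 / s)) with hδ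
    have hme : 0 < m / ε := div_pos hm0 hε
    have hδpos : 0 < δ := lt_min (by linarith) (Real.rpow_pos_of_pos hme _)
    have hxδ : δ < ‖x‖ := lt_of_le_of_lt (min_le_left _ _) (by linarith)
    refine min_principle_annulus (h := fun y => u y + ε * ‖y‖ ^ s) (r₁ := δ) (r₂ := R)
      ?_ ?_ ?_ ?_ x hxδ hxR
    · intro y hy
      have hy0 : y ≠ 0 := hne_of_norm_pos y (by linarith [hy.1])
      exact ((hu y hy0).add (contDiffAt_const.mul
        (contDiffAt_norm_rpow hy0 s))).continuousAt.continuousWithinAt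
    · intro y hy1 _
      have hy0 : y ≠ 0 := hne_of_norm_pos y (by linarith)
      refine ⟨(hu y hy0).add (contDiffAt_const.mul (contDiffAt_norm_rpow hy0 s)), ?_⟩
      rw [laplacian_add_mul (hu y hy0) (contDiffAt_norm_rpow hy0 s), hs, laplacian_fundamental hy0]
      simpa using hlap y hy0
    · intro y hy
      have hy0 : y ≠ 0 := hne_of_norm_pos y (by rw [hy]; exact hδpos)
      have h1 : ((m / ε) ^ (1 / s)) ^ s ≤ δ ^ s :=
        Real.rpow_le_rpow_of_nonpos hδpos (min_le_right _ _) hs0.le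
      rw [← Real.rpow_mul hme.le, one_div, inv_mul_cancel₀ hs0.ne, Real.rpow_one,
        div_le_iff₀ hε] at h1
      simp only [hy]
      linarith [pos y hy0]
    · intro y hy
      have hy0 : 0 < ‖y‖ := by rw [hy]; linarith
      have := Real.rpow_pos_of_pos hy0 s
      have h2 := hm y hy
      have : 0 < ε * ‖y‖ ^ s := mul_pos hε this
      linarith
  have hxs : 0 < ‖x‖ ^ s := Real.rpow_pos_of_pos hxn s
  by_contra hlt
  push Not at hlt
  have := key ((m - u x) / (2 * ‖x‖ ^ s)) (by apply div_pos <;> linarith)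
  have h3 : (m - u x) / (2 * ‖x‖ ^ s) * ‖x‖ ^ s = (m - u x) / 2 := by
    field_simp
  rw [h3] at this
  linarith

/-- a positive strictly superharmonic function on the punctured space decays at most like the
fundamental solution -/
lemma outer_bound (hE : 3 ≤ Module.finrank ℝ E) {u : E → ℝ}
    (hu : ∀ x, x ≠ 0 → ContDiffAt ℝ 2 u x) (pos : ∀ x, x ≠ 0 → 0 < u x)
    (hlap : ∀ x, x ≠ 0 → Δ u x < 0) {m r : ℝ} (hr : 0 < r) (hm0 : 0 ≤ m)
    (hm : ∀ x : E, ‖x‖ = r → m ≤ u x)
    {x : E} (hxr : r ≤ ‖x‖) :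
    m * (r ^ ((Module.finrank ℝ E : ℝ) - 2) * ‖x‖ ^ (2 - (Module.finrank ℝ E : ℝ))) ≤ u x := by
  set s : ℝ := 2 - (Module.finrank ℝ E : ℝ) with hs
  have hN : (3 : ℝ) ≤ (Module.finrank ℝ E : ℝ) := by exact_mod_cast hE
  have hs0 : s < 0 := by rw [hs]; linarith
  have hs' : (Module.finrank ℝ E : ℝ) - 2 = -s := by rw [hs]; ring
  rw [hs']
  have hrs : r ^ (-s) * r ^ s = 1 := by
    rw [← Real.rpow_add hr]; simp
  rcases hxr.eq_or_lt with hxr | hxr
  · rw [← hxr, hrs, mul_one]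
    exact hm x hxr.symm
  have hne_of_norm_pos : ∀ y : E, 0 < ‖y‖ → y ≠ 0 := fun y hy => norm_pos_iff.mp hy
  set K : ℝ := m * r ^ (-s) with hK
  have hK0 : 0 ≤ K := mul_nonneg hm0 (Real.rpow_pos_of_pos hr _).le
  have key : ∀ ε : ℝ, 0 < ε → -ε ≤ u x + (-K) * ‖x‖ ^ s := by
    intro ε hε
    have hq : 0 < ε / (K + 1) := div_pos hε (by linarith)
    set R := max (‖x‖ + 1) ((ε / (K + 1)) ^ (1 / s)) with hR
    have hxR : ‖x‖ < R := lt_of_lt_of_le (by linarith) (le_max_left _ _)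
    refine min_principle_annulus (h := fun y => u y + (-K) * ‖y‖ ^ s) (r₁ := r) (r₂ := R)
      ?_ ?_ ?_ ?_ x hxr hxR
    · intro y hy
      have hy0 : y ≠ 0 := hne_of_norm_pos y (by linarith [hy.1])
      exact ((hu y hy0).add (contDiffAt_const.mul
        (contDiffAt_norm_rpow hy0 s))).continuousAt.continuousWithinAt
    · intro y hy1 _
      have hy0 : y ≠ 0 := hne_of_norm_pos y (by linarith)
      refine ⟨(hu y hy0).add (contDiffAt_const.mul (contDiffAt_norm_rpow hy0 s)), ?_⟩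
      rw [laplacian_add_mul (hu y hy0) (contDiffAt_norm_rpow hy0 s), hs, laplacian_fundamental hy0]
      simpa using hlap y hy0
    · intro y hy
      have h2 := hm y hy
      simp only [hy]
      have : -K * r ^ s = -m := by
        rw [hK]
        calc -(m * r ^ (-s)) * r ^ s = -m * (r ^ (-s) * r ^ s) := by ring
          _ = -m := by rw [hrs, mul_one]
      rw [this]
      linarith
    · intro y hy
      have hR0 : 0 < R := by linarith [norm_nonneg x]
      have hy0 : y ≠ 0 := hne_of_norm_pos y (by rw [hy]; exact hR0)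
      have h1 : R ^ s ≤ ((ε / (K + 1)) ^ (1 / s)) ^ s :=
        Real.rpow_le_rpow_of_nonpos (Real.rpow_pos_of_pos hq _) (le_max_right _ _) hs0.le
      rw [← Real.rpow_mul hq.le, one_div, inv_mul_cancel₀ hs0.ne, Real.rpow_one,
        le_div_iff₀ (by linarith)] at h1
      have h4 : 0 < R ^ s := Real.rpow_pos_of_pos hR0 s
      simp only [hy]
      nlinarith [pos y hy0]
  have h5 : K * ‖x‖ ^ s ≤ u x := by
    by_contra hlt
    push Not at hlt
    have := key ((K * ‖x‖ ^ s - u x) / 2) (by linarith)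
    linarith
  calc m * (r ^ (-s) * ‖x‖ ^ s) = K * ‖x‖ ^ s := by rw [hK]; ring
    _ ≤ u x := h5

end Vale.Agent.P100.Sup
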