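import Mathlib
import Vale.Agent.Lib.P100.Sup.Mn
import Vale.Agent.Lib.P100.Sup.Mono
import Vale.Agent.Lib.P100.Sup.Ball
open Filter Topology Set InnerProductSpace Laplacian

namespace Vale.Agent.P100.Sup

variable {E : Type*} [NormedAddCommGroup E] [InnerProductSpace ℝ E] [FiniteDimensional ℝ E]

/-- comparison of the spherical minima: `m_u(r) ≥ c r^(2+A) m_v(r)^p` -/
lemma mn_pointwise (hE : 3 ≤ Module.finrank ℝ E) {p A : ℝ} (hp : 0 < p) {u v : E → ℝ}
    (hu : ∀ x, x ≠ 0 → ContDiffAt ℝ 2 u x) (hv : ∀ x, x ≠ 0 → ContDiffAt ℝ 2 v x)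
    (posu : ∀ x, x ≠ 0 → 0 < u x) (posv : ∀ x, x ≠ 0 → 0 < v x)
    (hlapv : ∀ x, x ≠ 0 → Δ v x < 0)
    (ineq : ∀ x, x ≠ 0 → ‖x‖ ^ A * v x ^ p ≤ -(Δ u x)) :
    ∃ c : ℝ, 0 < c ∧ ∀ r, 0 < r → c * (r ^ (2 + A) * mn v r ^ p) ≤ mn u r := by
  have hn3 : (3 : ℝ) ≤ (Module.finrank ℝ E : ℝ) := by exact_mod_cast hE
  have : Nontrivial E := Module.nontrivial_of_finrank_pos (R := ℝ) (by omega)
  set n : ℝ := (Module.finrank ℝ E : ℝ) with hndef
  set κ : ℝ := min ((1 / 2 : ℝ) ^ A) ((3 / 2 : ℝ) ^ A) with hκ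
  have hκ0 : 0 < κ := lt_min (Real.rpow_pos_of_pos (by norm_num) _)
    (Real.rpow_pos_of_pos (by norm_num) _)
  set θ : ℝ := (2 / 3 : ℝ) ^ (n - 2) with hθ
  have hθ0 : 0 < θ := Real.rpow_pos_of_pos (by norm_num) _
  have hθp : 0 < θ ^ p := Real.rpow_pos_of_pos hθ0 _
  refine ⟨κ * θ ^ p / (16 * n), by positivity, ?_⟩
  intro r hr
  have hne : ∀ (s : ℝ), 0 < s → ∀ y : E, s ≤ ‖y‖ → y ≠ 0 := by
    intro s hs y hy h0
    rw [h0, norm_zero] at hy
    linarith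
  have hcont : ∀ (w : E → ℝ), (∀ x, x ≠ 0 → ContDiffAt ℝ 2 w x) → ∀ s : ℝ, 0 < s →
      ContinuousOn w (Metric.sphere (0 : E) s) := by
    intro w hw s hs y hy
    have hy' : ‖y‖ = s := by simpa using hy
    exact (hw y (hne s hs y hy'.ge)).continuousAt.continuousWithinAt
  obtain ⟨x₀, hx₀r, hx₀u⟩ := exists_eq_mn hr.le (hcont u hu r hr)
  obtain ⟨z₀, hz₀r, hz₀v⟩ := exists_eq_mn hr.le (hcont v hv r hr)
  set mv : ℝ := mn v r with hmv
  have hmv0 : 0 < mv := by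
    rw [← hz₀v]; exact posv z₀ (hne r hr z₀ hz₀r.ge)
  have hmvle : ∀ x : E, ‖x‖ = r → mv ≤ v x := fun x hx => mn_le (hcont v hv r hr) hx
  have hr32 : 0 < 3 * r / 2 := by positivity
  -- lower bound on the sphere of radius 3r/2
  have hout : ∀ z : E, ‖z‖ = 3 * r / 2 → θ * mv ≤ v z := by
    intro z hz
    have h := outer_bound hE hv posv hlapv hr hmv0.le hmvle (x := z) (by rw [hz]; linarith)
    rw [hz, ← hndef] at h
    have e : r ^ (n - 2) * (3 * r / 2) ^ (2 - n) = θ := by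
      rw [show 2 - n = -(n - 2) by ring, Real.rpow_neg hr32.le, ← Real.inv_rpow hr32.le,
        ← Real.mul_rpow hr.le (by positivity), hθ]
      congr 1
      field_simp
    rw [e] at h
    linarith
  have hin : ∀ y : E, y ≠ 0 → ‖y‖ ≤ 3 * r / 2 → θ * mv ≤ v y := fun y hy hyR =>
    inner_bound hE hv posv hlapv hout hy hyR
  -- geometry of the ball
  have hgeo : ∀ y ∈ Metric.closedBall x₀ (r / 2), r / 2 ≤ ‖y‖ ∧ ‖y‖ ≤ 3 * r / 2 := by
    intro y hy
    have hd : ‖y - x₀‖ ≤ r / 2 := by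
      rw [← dist_eq_norm]; exact hy
    constructor
    · have h1 : ‖x₀‖ ≤ ‖y‖ + ‖y - x₀‖ := by
        have := norm_sub_le y (y - x₀)
        simpa using this
      linarith
    · have h1 : ‖y‖ ≤ ‖x₀‖ + ‖y - x₀‖ := by
        have := norm_add_le x₀ (y - x₀)
        simpa using this
      linarith
  have hr2 : 0 < r / 2 := by positivity
  have hpowA : ∀ t : ℝ, r / 2 ≤ t → t ≤ 3 * r / 2 → κ * r ^ A ≤ t ^ A := by
    intro t ht1 ht2
    have hrA : 0 < r ^ A := Real.rpow_pos_of_pos hr _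
    rcases le_total 0 A with hA | hA
    · have h1 : (r / 2) ^ A ≤ t ^ A := Real.rpow_le_rpow hr2.le ht1 hA
      have e : (r / 2) ^ A = (1 / 2 : ℝ) ^ A * r ^ A := by
        rw [← Real.mul_rpow (by norm_num) hr.le]; congr 1; ring
      rw [e] at h1
      exact (mul_le_mul_of_nonneg_right (min_le_left _ _) hrA.le).trans h1
    · have h1 : (3 * r / 2) ^ A ≤ t ^ A :=
        Real.rpow_le_rpow_of_nonpos (by linarith) ht2 hA
      have e : (3 * r / 2) ^ A = (3 / 2 : ℝ) ^ A * r ^ A := by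
        rw [← Real.mul_rpow (by norm_num) hr.le]; congr 1; ring
      rw [e] at h1
      exact (mul_le_mul_of_nonneg_right (min_le_right _ _) hrA.le).trans h1
  set lam : ℝ := κ * r ^ A * (θ * mv) ^ p with hlam
  have hlam0 : 0 < lam := by
    have h1 : 0 < r ^ A := Real.rpow_pos_of_pos hr _
    have h2 : 0 < (θ * mv) ^ p := Real.rpow_pos_of_pos (by positivity) _
    positivity
  have hbb := ball_barrier (u := u) (x₀ := x₀) (ρ := r / 2) (lam := lam) hr2 hlam0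
    (fun x hx => hu x (hne _ hr2 x (hgeo x hx).1))
    (fun x hx => (posu x (hne _ hr2 x (hgeo x hx).1)).le) ?_
  · rw [hx₀u, ← hndef] at hbb
    refine le_trans (le_of_eq ?_) hbb
    rw [hlam, Real.mul_rpow hθ0.le hmv0.le, Real.rpow_add hr, Real.rpow_two]
    field_simp
    ring
  · intro x hx
    have hx' := hgeo x (Metric.ball_subset_closedBall hx)
    have hx0 : x ≠ 0 := hne _ hr2 x hx'.1
    have h1 := ineq x hx0
    have h2 := hpowA ‖x‖ hx'.1 hx'.2
    have h3 : (θ * mv) ^ p ≤ v x ^ p :=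
      Real.rpow_le_rpow (by positivity) (hin x hx0 hx'.2) hp.le
    have h4 : lam ≤ ‖x‖ ^ A * v x ^ p := by
      rw [hlam]
      exact mul_le_mul h2 h3 (Real.rpow_nonneg (by positivity) _)
        (Real.rpow_nonneg (norm_nonneg _) _)
    linarith

end Vale.Agent.P100.Sup
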