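import Mathlib
import Vale.Agent.Lib.P100.Rad.Power
import Vale.Agent.Lib.P100.Sup.Pointwise
import Vale.Agent.Lib.P100.Sup.LogBound
open Filter Topology Set InnerProductSpace Laplacian

namespace Vale.Agent.P100.Sup

variable {E : Type*} [NormedAddCommGroup E] [InnerProductSpace ℝ E] [FiniteDimensional ℝ E]

/-- one half of the nonexistence theorem for supersolutions on the punctured space -/
theorem half (hE : 3 ≤ Module.finrank ℝ E) {p q A B : ℝ} (hp : 0 < p) (hq : 0 < q)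
    (hA : -2 < A) (hB : -2 < B)
    (hreg : ((Module.finrank ℝ E : ℝ) - 2) * (p * q - 1) ≤ (2 + A) + p * (2 + B))
    {u v : E → ℝ}
    (hu : ∀ x, x ≠ 0 → ContDiffAt ℝ 2 u x) (hv : ∀ x, x ≠ 0 → ContDiffAt ℝ 2 v x)
    (posu : ∀ x, x ≠ 0 → 0 < u x) (posv : ∀ x, x ≠ 0 → 0 < v x)
    (iu : ∀ x, x ≠ 0 → ‖x‖ ^ A * v x ^ p ≤ -(Δ u x))
    (iv : ∀ x, x ≠ 0 → ‖x‖ ^ B * u x ^ q ≤ -(Δ v x)) : False := by
  have : Nontrivial E := Module.nontrivial_of_finrank_pos (R := ℝ) (by omega)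
  set N : ℝ := (Module.finrank ℝ E : ℝ) with hNdef
  have hN : 3 ≤ N := by rw [hNdef]; exact_mod_cast hE
  have hlapu : ∀ x, x ≠ 0 → Δ u x < 0 := by
    intro x hx
    have := mul_pos (Real.rpow_pos_of_pos (norm_pos_iff.mpr hx) A)
      (Real.rpow_pos_of_pos (posv x hx) p)
    linarith [iu x hx]
  have hlapv : ∀ x, x ≠ 0 → Δ v x < 0 := by
    intro x hx
    have := mul_pos (Real.rpow_pos_of_pos (norm_pos_iff.mpr hx) B)
      (Real.rpow_pos_of_pos (posu x hx) q)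
    linarith [iv x hx]
  have hne : ∀ {r : ℝ}, 0 < r → ∀ x : E, ‖x‖ = r → x ≠ 0 := by
    intro r hr x hx h0
    rw [h0, norm_zero] at hx
    exact hr.ne hx
  have hcont : ∀ {w : E → ℝ}, (∀ x, x ≠ 0 → ContDiffAt ℝ 2 w x) → ∀ {r : ℝ}, 0 < r →
      ContinuousOn w (Metric.sphere (0 : E) r) := by
    intro w hw r hr x hx
    exact (hw x (hne hr x (by simpa using hx))).continuousAt.continuousWithinAt
  have posU : ∀ r, 0 < r → 0 < mn u r := by
    intro r hr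
    obtain ⟨x, hx, hxe⟩ := exists_eq_mn hr.le (hcont hu hr)
    rw [← hxe]
    exact posu x (hne hr x hx)
  have posV : ∀ r, 0 < r → 0 < mn v r := by
    intro r hr
    obtain ⟨x, hx, hxe⟩ := exists_eq_mn hr.le (hcont hv hr)
    rw [← hxe]
    exact posv x (hne hr x hx)
  have hUa : AntitoneOn (mn u) (Ioi 0) := by
    intro r hr R hR hrR
    obtain ⟨x, hx, hxe⟩ := exists_eq_mn (le_of_lt hr) (hcont hu hr)
    rw [← hxe]
    exact inner_bound hE hu posu hlapu (fun y hy => mn_le (hcont hu hR) hy) (hne hr x hx)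
      (by rw [hx]; exact hrR)
  have hlow : ∀ r, 1 ≤ r → mn u 1 * r ^ (-(N - 2)) ≤ mn u r := by
    intro r hr
    have hr0 : 0 < r := by linarith
    obtain ⟨x, hx, hxe⟩ := exists_eq_mn hr0.le (hcont hu hr0)
    rw [← hxe]
    have := outer_bound hE hu posu hlapu one_pos (posU 1 one_pos).le
      (fun y hy => mn_le (hcont hu one_pos) hy) (x := x) (by rw [hx]; exact hr)
    rw [Real.one_rpow, one_mul, hx] at this
    rwa [neg_sub]
  obtain ⟨c₁, hc₁, h1⟩ := mn_pointwise hE hp hu hv posu posv hlapv iu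
  obtain ⟨c₂, hc₂, h2⟩ := mn_pointwise hE hq hv hu posv posu hlapu iv
  have hPU := Rad.power_bound hp hc₁ hc₂ posU posV h1 h2
  have hg : 0 < (2 + A) + p * (2 + B) := by
    have : 0 < p * (2 + B) := mul_pos hp (by linarith)
    linarith
  by_cases hpq : p * q ≤ 1
  · exact Rad.false_of_pq_le_one (e := p * q - 1) (by linarith) hg posU hUa hPU
  push Not at hpq
  rcases hreg.lt_or_eq with hlt | heq
  · exact Rad.false_of_lower (e := p * q - 1) (k := N - 2) (by linarith) (posU 1 one_pos) hlt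
      hlow hPU
  -- the critical case
  set m₁ : ℝ := mn u 1 with hm₁
  have hm₁pos : 0 < m₁ := posU 1 one_pos
  set c : ℝ := (c₂ * m₁ ^ q) ^ p with hcdef
  have hcpos : 0 < c := Real.rpow_pos_of_pos (mul_pos hc₂ (Real.rpow_pos_of_pos hm₁pos _)) _
  have hsrc : ∀ x : E, 1 < ‖x‖ → Δ u x ≤ -(c * ‖x‖ ^ (-N)) := by
    intro x hx
    have hx0 : 0 < ‖x‖ := by linarith
    have hxne : x ≠ 0 := norm_pos_iff.mp hx0
    have e1 : m₁ * ‖x‖ ^ (-(N - 2)) ≤ mn u ‖x‖ := hlow _ hx.le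
    have e2 : c₂ * (‖x‖ ^ (2 + B) * mn u ‖x‖ ^ q) ≤ mn v ‖x‖ := h2 _ hx0
    have e3 : mn v ‖x‖ ≤ v x := mn_le (hcont hv hx0) rfl
    have e4 : (m₁ * ‖x‖ ^ (-(N - 2))) ^ q ≤ mn u ‖x‖ ^ q :=
      Real.rpow_le_rpow (mul_pos hm₁pos (Real.rpow_pos_of_pos hx0 _)).le e1 hq.le
    have e5 : (c₂ * m₁ ^ q) * ‖x‖ ^ ((2 + B) - q * (N - 2)) ≤ v x := by
      calc (c₂ * m₁ ^ q) * ‖x‖ ^ ((2 + B) - q * (N - 2))
          = c₂ * (‖x‖ ^ (2 + B) * (m₁ * ‖x‖ ^ (-(N - 2))) ^ q) := by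
            rw [Real.mul_rpow hm₁pos.le (Real.rpow_pos_of_pos hx0 _).le, ← Real.rpow_mul hx0.le,
              sub_eq_add_neg, Real.rpow_add hx0]
            have : -(N - 2) * q = -(q * (N - 2)) := by ring
            rw [this]
            ring
        _ ≤ c₂ * (‖x‖ ^ (2 + B) * mn u ‖x‖ ^ q) := by
            have := Real.rpow_pos_of_pos hx0 (2 + B)
            gcongr
        _ ≤ v x := e2.trans e3
    have e6 : ((c₂ * m₁ ^ q) * ‖x‖ ^ ((2 + B) - q * (N - 2))) ^ p ≤ v x ^ p :=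
      Real.rpow_le_rpow (mul_pos (mul_pos hc₂ (Real.rpow_pos_of_pos hm₁pos _))
        (Real.rpow_pos_of_pos hx0 _)).le e5 hp.le
    have e7 : c * ‖x‖ ^ (-N) = ‖x‖ ^ A * ((c₂ * m₁ ^ q) * ‖x‖ ^ ((2 + B) - q * (N - 2))) ^ p := by
      rw [Real.mul_rpow (mul_pos hc₂ (Real.rpow_pos_of_pos hm₁pos _)).le
        (Real.rpow_pos_of_pos hx0 _).le, ← Real.rpow_mul hx0.le]
      have : ‖x‖ ^ (-N) = ‖x‖ ^ A * ‖x‖ ^ (((2 + B) - q * (N - 2)) * p) := by
        rw [← Real.rpow_add hx0]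
        congr 1
        nlinarith
      rw [this, hcdef]
      ring
    have e8 : c * ‖x‖ ^ (-N) ≤ ‖x‖ ^ A * v x ^ p := by
      rw [e7]
      have := Real.rpow_pos_of_pos hx0 A
      gcongr
    linarith [iu x hxne]
  have hlog := log_barrier hE hcpos hu posu hsrc
  refine false_of_log (e := p * q - 1) (k := N - 2) (c := c / (2 * (N - 2))) (U := mn u)
    (C := (c₁ * c₂ ^ p)⁻¹) (by linarith) (div_pos hcpos (by linarith)) ?_ ?_
  · intro r hr
    have hr0 : 0 < r := by linarith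
    obtain ⟨x, hx, hxe⟩ := exists_eq_mn hr0.le (hcont hu hr0)
    rw [← hxe]
    have := hlog x (by rw [hx]; exact hr)
    rw [hx] at this
    rwa [neg_sub]
  · intro r hr
    rw [heq]
    exact hPU r hr

/-- **Nonexistence of positive supersolutions on the punctured space.** -/
theorem no_supersolution (hE : 3 ≤ Module.finrank ℝ E) {p q A B : ℝ} (hp : 0 < p) (hq : 0 < q)
    (hA : -2 < A) (hB : -2 < B)
    (hreg : ((Module.finrank ℝ E : ℝ) - 2) * (p * q - 1) ≤ (2 + A) + p * (2 + B) ∨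
      ((Module.finrank ℝ E : ℝ) - 2) * (p * q - 1) ≤ (2 + B) + q * (2 + A))
    {u v : E → ℝ}
    (hu : ∀ x, x ≠ 0 → ContDiffAt ℝ 2 u x) (hv : ∀ x, x ≠ 0 → ContDiffAt ℝ 2 v x)
    (posu : ∀ x, x ≠ 0 → 0 < u x) (posv : ∀ x, x ≠ 0 → 0 < v x)
    (iu : ∀ x, x ≠ 0 → ‖x‖ ^ A * v x ^ p ≤ -(Δ u x))
    (iv : ∀ x, x ≠ 0 → ‖x‖ ^ B * u x ^ q ≤ -(Δ v x)) : False := by
  rcases hreg with h | h
  · exact half hE hp hq hA hB h hu hv posu posv iu iv
  · exact half hE hq hp hB hA (by rwa [mul_comm q p]) hv hu posv posu iv iu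

end Vale.Agent.P100.Sup
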